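import Vale.Agent.Lib.P038.SatK.I.P6_2.H
noncomputable section
namespace Vale.Agent.Lib.P038.SatK.I.P6_2.S0
open Vale.Agent.Lib.P038.Sat Vale.Agent.Lib.P038.SatK Vale.Agent.Lib.P038.SatK.I.P6_2
def b0 : List Nat := [nat_lit 703687441776695,nat_lit 3460383003594080593,nat_lit 774073365823559,nat_lit 1731071132607856993,nat_lit 844459289870423,nat_lit 4036984527745597809,nat_lit 914845213917287,nat_lit 4613515665973068161,nat_lit 577797827296510608,nat_lit 1153906744468980384,nat_lit 18901573014737870406320,nat_lit 23621633373132049367744,nat_lit 42511675695002913620688,nat_lit 1548224041058312]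
def p0 : List Nat := [nat_lit 4503599627419648,nat_lit 13511898393763842,nat_lit 22520197160165380,nat_lit 31528495926542343,nat_lit 36028797018972168,nat_lit 40536794692861960,nat_lit 368966408870605914116,nat_lit 405846385119631286276,nat_lit 442739876565585305612,nat_lit 7147630886925]
def o0 : List Nat := [nat_lit 13]
theorem ok : segCheck (Gen.gen sh_6_2_0_f (flP 6 2)) W M GT 4 0 1 H [b0] [] [p0] [o0] = true := by decide +kernel
theorem seg {τ : Nat → Bool} (hgen : ∀ t c, Gen.gen sh_6_2_0_f (flP 6 2) t = some c → holdsG τ c)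
  (hin : ∀ g, g < 0 → HL W (loc GT τ) (getB H g)) :
  ∀ g, 0 ≤ g → g < 1 → HL W (loc GT τ) (getB H g) :=
  segCheck_sound ok hgen hin
end Vale.Agent.Lib.P038.SatK.I.P6_2.S0
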